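import Vale.Agent.P037.Far

namespace Vale.Agent.Results.P037.NoPolyRemoval

open Finset
open scoped Classical

/-- rows `r` and columns `c` form an ordered copy of `H` in `A` -/
def IsCopy {k n : ℕ} (H : Matrix (Fin k) (Fin k) Bool) (A : Matrix (Fin n) (Fin n) Bool)
    (r c : Fin k → Fin n) : Prop :=
  StrictMono r ∧ StrictMono c ∧ ∀ i j, A (r i) (c j) = H i j

/-- the number `N_H(A)` of ordered copies of `H` in `A` -/
noncomputable def numCopies {k n : ℕ} (H : Matrix (Fin k) (Fin k) Bool)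
    (A : Matrix (Fin n) (Fin n) Bool) : ℕ :=
  (univ.filter fun p : (Fin k → Fin n) × (Fin k → Fin n) => IsCopy H A p.1 p.2).card

/-- the number of entries where `A` and `B` differ -/
def hamming {n : ℕ} (A B : Matrix (Fin n) (Fin n) Bool) : ℕ :=
  (univ.filter fun p : Fin n × Fin n => A p.1 p.2 ≠ B p.1 p.2).card

/-- the normalized distance of `A` from the `H`-free matrices -/
noncomputable def distFree {k n : ℕ} (H : Matrix (Fin k) (Fin k) Bool)
    (A : Matrix (Fin n) (Fin n) Bool) : ℝ :=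
  ((sInf {d : ℕ | ∃ B : Matrix (Fin n) (Fin n) Bool, numCopies H B = 0 ∧ hamming A B = d} : ℕ) : ℝ)
    / (n : ℝ) ^ 2

lemma exists_enum {X L : Type} [Fintype X] [LinearOrder L] (key : X → L)
    (hk : Function.Injective key) {n : ℕ} (hn : Fintype.card X = n) :
    ∃ e : Fin n ≃ X, ∀ i j, key (e i) < key (e j) ↔ i < j := by
  let _ : LinearOrder X := LinearOrder.lift' key hk
  refine ⟨(monoEquivOfFin X hn).toEquiv, fun i j => ?_⟩
  exact (monoEquivOfFin X hn).lt_iff_lt

open Vale.Agent.P037 in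
lemma family (p : ℕ) (hp : 1 ≤ p) : ∃ A : Matrix (Fin ((202 * p + 52) * 4 ^ p))
      (Fin ((202 * p + 52) * 4 ^ p)) Bool,
    1 / ((202 * p + 52 : ℕ) : ℝ) ^ 2 ≤ distFree (fun u v : Fin 26 => Hn u.val v.val) A ∧
    numCopies (fun u v : Fin 26 => Hn u.val v.val) A ≤ ((202 * p + 52) * 4 ^ p) ^ 51 := by
  set n := (202 * p + 52) * 4 ^ p with hn
  set H : Matrix (Fin 26) (Fin 26) Bool := fun u v => Hn u.val v.val with hH
  have h4 : 2 ^ (2 * p) = 4 ^ p := by rw [pow_mul]; norm_num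
  have hcard : Fintype.card (T (2 * p)) = n := by
    rw [Fintype.card_prod, Fintype.card_fin, Fintype.card_fin, hn, h4]
    unfold GG FF
    ring
  obtain ⟨eR, heR⟩ := exists_enum (keyR (h := 2 * p)) keyR_inj hcard
  obtain ⟨eC, heC⟩ := exists_enum (keyC (h := 2 * p)) keyC_inj hcard
  refine ⟨fun i j => A0 (eR i) (eC j), ?_, ?_⟩
  · have hne : {d : ℕ | ∃ B : Matrix (Fin n) (Fin n) Bool, numCopies H B = 0 ∧
        hamming (fun i j => A0 (eR i) (eC j)) B = d}.Nonempty := by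
      refine ⟨_, fun _ _ => false, ?_, rfl⟩
      unfold numCopies
      rw [card_eq_zero, filter_eq_empty_iff]
      rintro ⟨r, c⟩ _ ⟨_, _, h3⟩
      have := h3 0 0
      simp only [hH] at this
      have h0 := Hn_zero 0 (by omega)
      simp [h0] at this
    obtain ⟨B, hB, hd⟩ := Nat.sInf_mem hne
    have hlow : 4 ^ p * 4 ^ p ≤ hamming (fun i j => A0 (eR i) (eC j)) B := by
      by_contra hlt
      push Not at hlt
      obtain ⟨ρ, γ, c1, c2, c3⟩ := far (h := 2 * p) (fun x y => B (eR.symm x) (eC.symm y)) (by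
        refine lt_of_le_of_lt ?_ (hlt.trans_eq (by rw [h4]))
        unfold hamming
        apply card_le_card_of_injOn (fun q => (eR.symm q.1, eC.symm q.2))
        · intro q hq
          simpa using hq
        · intro q _ q' _ e
          simp only [Prod.mk.injEq, EmbeddingLike.apply_eq_iff_eq] at e
          exact Prod.ext e.1 e.2)
      unfold numCopies at hB
      rw [card_eq_zero, filter_eq_empty_iff] at hB
      apply hB (mem_univ (fun u : Fin 26 => eR.symm (ρ u.val), fun u : Fin 26 => eC.symm (γ u.val)))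
      refine ⟨fun u u' h => ?_, fun u u' h => ?_, fun u v => c3 u.val u.isLt v.val v.isLt⟩
      · rw [← heR]; simpa using c1 u.val u'.val h u'.isLt
      · rw [← heC]; simpa using c2 u.val u'.val h u'.isLt
    unfold distFree
    rw [← hd]
    have hpos : (0 : ℝ) < (4 : ℝ) ^ p := by positivity
    have hG : (0 : ℝ) < ((202 * p + 52 : ℕ) : ℝ) := by positivity
    have hn' : (n : ℝ) = ((202 * p + 52 : ℕ) : ℝ) * 4 ^ p := by rw [hn]; push_cast; ring
    rw [hn', div_le_div_iff₀ (by positivity) (by positivity)]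
    have : (4 : ℝ) ^ p * 4 ^ p ≤ (hamming (fun i j => A0 (eR i) (eC j)) B : ℝ) := by
      exact_mod_cast hlow
    nlinarith [mul_le_mul_of_nonneg_right this (sq_nonneg ((202 * p + 52 : ℕ) : ℝ))]
  · have key : ∀ r c : Fin 26 → Fin n, IsCopy H (fun i j => A0 (eR i) (eC j)) r c →
        (eC (c (Fin.last 25))).1.val = FF (2 * p) + 2 * p / 2 + 1 ∧
        (eR (r (Fin.last 25))).2.val + (eC (c (Fin.last 25))).2.val + 1 = 2 ^ (2 * p) := by
      rintro r c ⟨h1, h2, h3⟩
      have := few (h := 2 * p) (by omega) (by omega)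
        (ρ := fun u => if hu : u < 26 then eR (r ⟨u, hu⟩) else eR (r 0))
        (γ := fun u => if hu : u < 26 then eC (c ⟨u, hu⟩) else eC (c 0)) ⟨?_, ?_, ?_⟩
      · simpa [Fin.last] using this
      · intro u u' a b
        simp only [dif_pos b, dif_pos (a.trans b)]
        rw [heR]; exact h1 a
      · intro u u' a b
        simp only [dif_pos b, dif_pos (a.trans b)]
        rw [heC]; exact h2 a
      · intro u hu v hv
        simp only [dif_pos hu, dif_pos hv]
        exact h3 ⟨u, hu⟩ ⟨v, hv⟩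
    have : numCopies H (fun i j => A0 (eR i) (eC j)) ≤
        (univ : Finset ((Fin 26 → Fin n) × (Fin 25 → Fin n))).card := by
      unfold numCopies
      apply card_le_card_of_injOn (fun q => (q.1, fun i : Fin 25 => q.2 i.castSucc))
      · intro q _; simp
      · rintro ⟨r, c⟩ hq ⟨r', c'⟩ hq' e
        simp only [coe_filter, mem_univ, true_and, Set.mem_ofPred_eq] at hq hq'
        simp only [Prod.mk.injEq] at e
        obtain ⟨rfl, e⟩ := e
        have k1 := key _ _ hq
        have k2 := key _ _ hq'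
        congr 1
        funext i
        refine Fin.lastCases ?_ (fun i => congrFun e i) i
        apply eC.injective
        exact Prod.ext (Fin.ext (by omega)) (Fin.ext (by omega))
    refine this.trans (le_of_eq ?_)
    simp only [card_univ, Fintype.card_prod, Fintype.card_fun, Fintype.card_fin]
    ring

lemma exists_p (c C : ℝ) (hc : 0 < c) : ∃ p : ℕ, 1 ≤ p ∧
    ((202 * p + 52 : ℕ) : ℝ) ^ (2 * C) < c * 4 ^ p := by
  obtain ⟨N, hN⟩ := exists_nat_ge (2 * C)
  have ht := tendsto_pow_const_div_const_pow_of_one_lt N (by norm_num : (1 : ℝ) < 4)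
  have hpos : (0 : ℝ) < c / 254 ^ N := by positivity
  obtain ⟨p, hp1, hp2⟩ := ((ht.eventually (gt_mem_nhds hpos)).and
    (Filter.eventually_ge_atTop 1)).exists
  refine ⟨p, hp2, ?_⟩
  have h1 : (1 : ℝ) ≤ p := by exact_mod_cast hp2
  have h2 : ((202 * p + 52 : ℕ) : ℝ) ≤ 254 * p := by push_cast; linarith
  have h3 : (1 : ℝ) ≤ ((202 * p + 52 : ℕ) : ℝ) := by push_cast; linarith
  rw [div_lt_div_iff₀ (by positivity) (by positivity)] at hp1
  calc ((202 * p + 52 : ℕ) : ℝ) ^ (2 * C) ≤ ((202 * p + 52 : ℕ) : ℝ) ^ (N : ℝ) :=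
        Real.rpow_le_rpow_of_exponent_le h3 hN
    _ = ((202 * p + 52 : ℕ) : ℝ) ^ N := Real.rpow_natCast _ _
    _ ≤ (254 * p : ℝ) ^ N := pow_le_pow_left₀ (by positivity) h2 N
    _ = (p : ℝ) ^ N * 254 ^ N := by rw [mul_pow, mul_comm]
    _ < c * 4 ^ p := hp1

theorem result : ∃ H : Matrix (Fin 26) (Fin 26) Bool,
    (∀ c C : ℝ, 0 < c → 0 < C → ∃ n : ℕ, 1 ≤ n ∧ ∃ ε : ℝ, 0 < ε ∧ ε < 1 ∧
      ∃ A : Matrix (Fin n) (Fin n) Bool, ε ≤ distFree H A ∧
        (numCopies H A : ℝ) < c * ε ^ C * (n : ℝ) ^ (2 * 26)) ∧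
    (∀ p : ℕ, 1 ≤ p → ∃ n : ℕ, n = (202 * p + 52) * 4 ^ p ∧ ∃ A : Matrix (Fin n) (Fin n) Bool,
      1 / (202 * (p : ℝ) + 52) ^ 2 ≤ distFree H A ∧ numCopies H A ≤ n ^ 51) := by
  refine ⟨fun u v : Fin 26 => Vale.Agent.P037.Hn u.val v.val, ?_, ?_⟩
  · intro c C hc _
    obtain ⟨p, hp, hlt⟩ := exists_p c C hc
    obtain ⟨A, h1, h2⟩ := family p hp
    have h3 : (1 : ℝ) < ((202 * p + 52 : ℕ) : ℝ) := by
      have : (0 : ℝ) ≤ p := by positivity
      push_cast; linarith
    refine ⟨_, Nat.one_le_iff_ne_zero.mpr (by positivity), 1 / ((202 * p + 52 : ℕ) : ℝ) ^ 2,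
      by positivity, ?_, A, h1, ?_⟩
    · rw [div_lt_one (by positivity)]; nlinarith
    · generalize hG : ((202 * p + 52 : ℕ) : ℝ) = G at *
      have hn : (((202 * p + 52) * 4 ^ p : ℕ) : ℝ) = G * 4 ^ p := by rw [← hG]; push_cast; ring
      have h2' : (numCopies (fun u v : Fin 26 => Vale.Agent.P037.Hn u.val v.val) A : ℝ) ≤
          (G * 4 ^ p) ^ 51 := by rw [← hn]; exact_mod_cast h2
      refine h2'.trans_lt ?_
      rw [hn]
      have hG0 : 0 < G := by linarith
      have e : (1 / G ^ 2) ^ C = (G ^ (2 * C))⁻¹ := by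
        rw [one_div, Real.inv_rpow (by positivity), ← Real.rpow_two, ← Real.rpow_mul hG0.le]
      have hpw : 0 < G ^ (2 * C) := Real.rpow_pos_of_pos hG0 _
      have h5 : 1 < c * (G ^ (2 * C))⁻¹ * (G * 4 ^ p) := by
        have h6 : 1 < c * 4 ^ p * (G ^ (2 * C))⁻¹ := by
          rw [← div_eq_mul_inv, one_lt_div hpw]; exact hlt
        have h7 : 0 < c * 4 ^ p * (G ^ (2 * C))⁻¹ := by positivity
        nlinarith
      rw [e]
      have h8 : (0 : ℝ) < (G * 4 ^ p) ^ 51 := by positivity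
      calc (G * 4 ^ p) ^ 51 = 1 * (G * 4 ^ p) ^ 51 := by ring
        _ < c * (G ^ (2 * C))⁻¹ * (G * 4 ^ p) * (G * 4 ^ p) ^ 51 := mul_lt_mul_of_pos_right h5 h8
        _ = c * (G ^ (2 * C))⁻¹ * (G * 4 ^ p) ^ (2 * 26) := by ring
  · intro p hp
    obtain ⟨A, h1, h2⟩ := family p hp
    refine ⟨_, rfl, A, ?_, h2⟩
    simpa using h1

end Vale.Agent.Results.P037.NoPolyRemoval
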